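import Vale.Agent.Lib.P143.Tree

/-!
# P143: the free uniform spanning forest is a factor of IID on all iterated free products of
finite groups and infinite cyclic groups; closure under free products
-/

open Monoid SimpleGraph MeasureTheory

namespace Vale.Agent.Results.P143.FreeProdClass

open Vale.Agent.P143

/-- The class of marked groups `(Γ, S)` obtained from finite groups with an arbitrary generating
set and from the infinite cyclic group with its standard generator by iterated free products, the
generating set of a free product being the union of the generating sets of the two factors. -/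
inductive FPClass : ∀ (Γ : Type) [Group Γ], Set Γ → Prop
  | finite (A : Type) [Group A] [Finite A] (S : Set A) (h : Subgroup.closure S = ⊤) : FPClass A S
  | int : FPClass (Multiplicative ℤ) {Multiplicative.ofAdd 1}
  | coprod (A B : Type) [Group A] [Group B] (SA : Set A) (SB : Set B) :
      FPClass A SA → FPClass B SB →
      FPClass (Coprod A B)
        ((Coprod.inl : A →* Coprod A B) '' SA ∪ (Coprod.inr : B →* Coprod A B) '' SB)

/-- `S` generates `Γ`, the Cayley graph has an exhaustion by finite connected subgraphs, and its
free uniform spanning forest is a `Γ`-factor of IID. -/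
def FusfIsFactor (Γ : Type) [Group Γ] (S : Set Γ) : Prop :=
  Subgroup.closure S = ⊤ ∧
  (∃ H : ℕ → (mulCayley S).Subgraph, IsExhaustion (mulCayley S) H) ∧
  ∃ μ : Measure (Set (Sym2 Γ)), IsFUSF (mulCayley S) μ ∧ IsFactorOfIID Γ μ

theorem closure_step (A B : Type) [Group A] [Group B] [Countable A] [Countable B] (SA : Set A)
    (SB : Set B) (hA : FusfIsFactor A SA) (hB : FusfIsFactor B SB) :
    FusfIsFactor (Coprod A B)
      ((Coprod.inl : A →* Coprod A B) '' SA ∪ (Coprod.inr : B →* Coprod A B) '' SB) := by
  obtain ⟨hSA, _, μA, hA, hA'⟩ := hA
  obtain ⟨hSB, _, μB, hB, hB'⟩ := hB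
  have hcl := closure_coprod SA SB hSA hSB
  exact ⟨hcl, exists_exhaustion _ (preconnected_of_closure _ hcl),
    fusf_coprod SA SB μA μB hA hA' hB hB'⟩

theorem class_aux (Γ : Type) [Group Γ] (S : Set Γ) (h : FPClass Γ S) :
    Countable Γ ∧ FusfIsFactor Γ S := by
  induction h with
  | finite A S h =>
    exact ⟨inferInstance, h, exists_exhaustion _ (preconnected_of_closure _ h), fusf_finite S h⟩
  | int =>
    exact ⟨inferInstance, int_closure, exists_exhaustion _ (preconnected_of_closure _ int_closure),
      fusf_acyclic _ int_acyclic⟩
  | coprod A B SA SB _ _ ihA ihB =>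
    have := ihA.1
    have := ihB.1
    exact ⟨inferInstance, closure_step A B SA SB ihA.2 ihB.2⟩

/-- (1) For every marked group `(Γ, S)` obtained from finite groups (arbitrary generating sets) and
copies of the integers by iterated free products, the free uniform spanning forest of the Cayley
graph is a `Γ`-factor of IID.  (2) The class of countable marked groups with this property is
closed under free products. -/
theorem result :
    (∀ (Γ : Type) [Group Γ] (S : Set Γ), FPClass Γ S → FusfIsFactor Γ S) ∧
    (∀ (A B : Type) [Group A] [Group B] [Countable A] [Countable B] (SA : Set A) (SB : Set B),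
      FusfIsFactor A SA → FusfIsFactor B SB →
      FusfIsFactor (Coprod A B)
        ((Coprod.inl : A →* Coprod A B) '' SA ∪ (Coprod.inr : B →* Coprod A B) '' SB)) :=
  ⟨fun Γ _ S h => (class_aux Γ S h).2, fun A B _ _ _ _ SA SB hA hB => closure_step A B SA SB hA hB⟩

end Vale.Agent.Results.P143.FreeProdClass
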