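import Vale.Agent.Lib.P143.CoprodInst

/-!
# P143: the class of Cayley graphs whose free uniform spanning forest is a factor of IID is closed
under free products
-/

open Monoid SimpleGraph MeasureTheory

namespace Vale.Agent.Results.P143.FreeProduct

open Vale.Agent.P143

/-- Let `A`, `B` be countable groups generated by `SA`, `SB`.  If the free uniform spanning forest
of the Cayley graph of `(A, SA)` is an `A`-factor of IID and that of `(B, SB)` is a `B`-factor of
IID, then the union `S` of the copies of `SA` and `SB` generates the free product `A * B`, its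
Cayley graph has an exhaustion by finite connected subgraphs, and the free uniform spanning forest
of the Cayley graph of `(A * B, S)` is an `A * B`-factor of IID. -/
theorem result :
    ∀ (A B : Type) [Group A] [Group B] [Countable A] [Countable B] (SA : Set A) (SB : Set B),
      Subgroup.closure SA = ⊤ → Subgroup.closure SB = ⊤ →
      (∃ μA : Measure (Set (Sym2 A)), IsFUSF (mulCayley SA) μA ∧ IsFactorOfIID A μA) →
      (∃ μB : Measure (Set (Sym2 B)), IsFUSF (mulCayley SB) μB ∧ IsFactorOfIID B μB) →
      ∀ S : Set (Coprod A B),
        S = (Coprod.inl : A →* Coprod A B) '' SA ∪ (Coprod.inr : B →* Coprod A B) '' SB →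
        Subgroup.closure S = ⊤ ∧
        (∃ H : ℕ → (mulCayley S).Subgraph, IsExhaustion (mulCayley S) H) ∧
        ∃ μ : Measure (Set (Sym2 (Coprod A B))),
          IsFUSF (mulCayley S) μ ∧ IsFactorOfIID (Coprod A B) μ := by
  rintro A B _ _ _ _ SA SB hSA hSB ⟨μA, hA, hA'⟩ ⟨μB, hB, hB'⟩ S rfl
  have hcl := closure_coprod SA SB hSA hSB
  exact ⟨hcl, exists_exhaustion _ (preconnected_of_closure _ hcl),
    fusf_coprod SA SB μA μB hA hA' hB hB'⟩

end Vale.Agent.Results.P143.FreeProduct
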