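import Vale.Agent.Lib.P143.Modular
import Vale.Agent.Lib.P143.Exhaust

/-!
# P143: the free uniform spanning forest of the Cayley graph of `Z/2 * Z/3` is a factor of IID
-/

open Monoid SimpleGraph MeasureTheory

namespace Vale.Agent.Results.P143.ModularGroup

open Vale.Agent.P143

theorem reach_mul (x : Gam) : ∀ u : Gam, (mulCayley ({ga, gb} : Set Gam)).Reachable u (u * x) := by
  have hb : ∀ u : Gam, (mulCayley ({ga, gb} : Set Gam)).Reachable u (u * gb) := fun u =>
    (triSys.adj u).reachable
  have ha : ∀ u : Gam, (mulCayley ({ga, gb} : Set Gam)).Reachable u (u * ga) := by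
    intro u
    by_cases h : u = u * ga
    · rw [← h]
    · apply Adj.reachable
      rw [mulCayley_adj']
      exact ⟨h, ga, by simp, Or.inl rfl⟩
  induction x using Coprod.induction_on with
  | inl g =>
    intro u
    rcases z2_cases g with rfl | rfl
    · simp
    · exact ha u
  | inr g =>
    intro u
    rcases z3_cases g with rfl | rfl | rfl
    · simp
    · exact hb u
    · rw [map_mul, ← mul_assoc]
      exact (hb u).trans (hb _)
  | mul x y hx hy =>
    intro u
    rw [← mul_assoc]
    exact (hx u).trans (hy _)

theorem preconnected : (mulCayley ({ga, gb} : Set Gam)).Preconnected := by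
  intro u v
  have := reach_mul (u⁻¹ * v) u
  rwa [mul_inv_cancel_left] at this

instance : Countable Gam := Coprod.mk_surjective.countable

theorem closure_eq_top : Subgroup.closure ({ga, gb} : Set Gam) = ⊤ := by
  rw [eq_top_iff]
  intro x _
  induction x using Coprod.induction_on with
  | inl g =>
    rcases z2_cases g with rfl | rfl
    · simp
    · exact Subgroup.subset_closure (by simp [ga])
  | inr g =>
    rcases z3_cases g with rfl | rfl | rfl
    · simp
    · exact Subgroup.subset_closure (by simp [gb])
    · rw [map_mul]
      exact Subgroup.mul_mem _ (Subgroup.subset_closure (by simp [gb]))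
        (Subgroup.subset_closure (by simp [gb]))
  | mul x y hx hy => exact Subgroup.mul_mem _ (hx trivial) (hy trivial)

/-- Let `Γ = Z/2 * Z/3` (the modular group) with its standard generators `a` (of order 2) and `b`
(of order 3), and let `G` be the Cayley graph.  Then `a, b` generate `Γ`, the graph `G` has an
exhaustion by finite connected subgraphs, and there is a probability law `μ` on edge configurations
which is the free uniform spanning forest of `G` (the limit of the uniform spanning trees along
every exhaustion) and which is a `Γ`-factor of IID. -/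
theorem result :
    ∀ (a b : Coprod (Multiplicative (ZMod 2)) (Multiplicative (ZMod 3))),
      a = Coprod.inl (Multiplicative.ofAdd 1) → b = Coprod.inr (Multiplicative.ofAdd 1) →
      Subgroup.closure {a, b} = ⊤ ∧
      (∃ H : ℕ → (mulCayley {a, b}).Subgraph, IsExhaustion (mulCayley {a, b}) H) ∧
      ∃ μ : Measure (Set (Sym2 (Coprod (Multiplicative (ZMod 2)) (Multiplicative (ZMod 3))))),
        IsFUSF (mulCayley {a, b}) μ ∧
        IsFactorOfIID (Coprod (Multiplicative (ZMod 2)) (Multiplicative (ZMod 3))) μ := by
  rintro a b rfl rfl
  refine ⟨closure_eq_top, exists_exhaustion _ preconnected, _, triSys.isFUSF, ?_⟩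
  exact ⟨_, triSys.measurable_triFactor, fun γ U => triFactor_equivariant _ _ γ U, rfl⟩

end Vale.Agent.Results.P143.ModularGroup
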